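import Vale.Agent.Lib.P064F.Basic

/-!
The closure step (notes/P064F_blueprint.md, parts A1, A2, A3): `Z ≤ 2 max (1, R / R0)`.
-/

open Finset

namespace Vale.Agent.Lib.P064G

open Vale.Agent.Lib.P064F

open scoped Classical

variable {V : Type} [Fintype V]

/-- Common hypotheses of one step of the induction. `A` the children of `x`, `Zv`, `Rv` the values at the children, `Rx` the value at `x`. -/
structure StepHyp (A : Finset V) (Zv Rv : V → ℝ) (Rx D : ℝ) : Prop where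
  hD : 0 < D
  hZ0 : ∀ v ∈ A, 0 ≤ Zv v
  hZ : ∀ v ∈ A, Zv v ≤ 2 * max 1 (Rv v / Real.exp (kk * D / 2))
  hR1 : ∀ v ∈ A, 1 ≤ Rv v
  hsup : ∀ T, T ⊆ A → (T.card.factorial : ℝ) * (1 / (16 * D)) ^ T.card * ∏ v ∈ T, Rv v ≤ Rx

private lemma sum_powerset_split_aux {A : Finset V} (P : V → Prop) (f : Finset V → ℝ) :
    ∑ T ∈ A.powerset, f T =
      ∑ T₁ ∈ (A.filter fun v => ¬ P v).powerset, ∑ T₂ ∈ (A.filter P).powerset, f (T₁ ∪ T₂) := by
  rw [← Finset.sum_product' _ _ (fun T₁ T₂ => f (T₁ ∪ T₂))]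
  have hleft : ∀ T : Finset V, (T.filter fun v => ¬ P v) ∪ T.filter P = T := by
    intro T
    ext x
    simp only [Finset.mem_union, Finset.mem_filter]
    tauto
  refine Finset.sum_nbij' (fun T => (T.filter fun v => ¬ P v, T.filter P))
    (fun p => p.1 ∪ p.2) ?_ ?_ ?_ ?_ ?_
  · intro T hT
    have hT' := Finset.mem_powerset.1 hT
    simp only [Finset.mem_product, Finset.mem_powerset]
    exact ⟨Finset.filter_subset_filter _ hT', Finset.filter_subset_filter _ hT'⟩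
  · rintro ⟨T₁, T₂⟩ hp
    obtain ⟨h1, h2⟩ := Finset.mem_product.1 hp
    have h1' := Finset.mem_powerset.1 h1
    have h2' := Finset.mem_powerset.1 h2
    exact Finset.mem_powerset.2 (Finset.union_subset (h1'.trans (Finset.filter_subset _ _))
      (h2'.trans (Finset.filter_subset _ _)))
  · intro T _
    exact hleft T
  · rintro ⟨T₁, T₂⟩ hp
    obtain ⟨h1, h2⟩ := Finset.mem_product.1 hp
    have h1' := Finset.mem_powerset.1 h1
    have h2' := Finset.mem_powerset.1 h2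
    have hn1 : ∀ x ∈ T₁, ¬ P x := fun x hx => (Finset.mem_filter.1 (h1' hx)).2
    have hn2 : ∀ x ∈ T₂, P x := fun x hx => (Finset.mem_filter.1 (h2' hx)).2
    refine Prod.ext ?_ ?_
    · ext x
      simp only [Finset.mem_filter, Finset.mem_union]
      constructor
      · rintro ⟨h | h, hx⟩
        · exact h
        · exact absurd (hn2 x h) hx
      · intro h
        exact ⟨Or.inl h, hn1 x h⟩
    · ext x
      simp only [Finset.mem_filter, Finset.mem_union]
      constructor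
      · rintro ⟨h | h, hx⟩
        · exact absurd hx (hn1 x h)
        · exact h
      · intro h
        exact ⟨Or.inr h, hn2 x h⟩
  · intro T _
    simp only
    rw [hleft T]

private lemma geom_le_aux {x : ℝ} (h0 : 0 ≤ x) (h1 : x < 1) (N : ℕ) :
    ∑ i ∈ Finset.range N, x ^ i ≤ 1 / (1 - x) := by
  have h2 : 0 < 1 - x := by linarith
  rw [le_div_iff₀ h2]
  have h3 := mul_neg_geom_sum x N
  have h4 : 0 ≤ x ^ N := by positivity
  nlinarith

private lemma choose_mul_fact_le (p i l : ℕ) :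
    ((p.choose l : ℝ)) * (((i + l).factorial : ℕ) : ℝ) ≤
      (2 : ℝ) ^ (i + l) * (i.factorial : ℝ) * (p : ℝ) ^ l := by
  have h1 : (i + l).choose l * i.factorial * l.factorial = (i + l).factorial :=
    Nat.add_choose_mul_factorial_mul_factorial i l
  have h2 : (i + l).choose l ≤ 2 ^ (i + l) := Nat.choose_le_two_pow _ _
  have h3 : l.factorial * p.choose l ≤ p ^ l := by
    rw [← Nat.descFactorial_eq_factorial_mul_choose]
    exact Nat.descFactorial_le_pow p l
  have h4 : p.choose l * (i + l).factorial ≤ 2 ^ (i + l) * i.factorial * p ^ l := by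
    rw [← h1]
    calc p.choose l * ((i + l).choose l * i.factorial * l.factorial)
        = (i + l).choose l * i.factorial * (l.factorial * p.choose l) := by ring
      _ ≤ 2 ^ (i + l) * i.factorial * p ^ l :=
          Nat.mul_le_mul (Nat.mul_le_mul_right _ h2) h3
  exact_mod_cast h4

private lemma G_le_aux {τ : ℝ} (hτ : 0 < τ) {p : ℕ} (hp : (p : ℝ) ≤ τ / 4) (i : ℕ) :
    ∑ l ∈ Finset.range (p + 1), (p.choose l) • (((i + l).factorial : ℝ) * (1 / τ) ^ (i + l)) ≤
      (i.factorial : ℝ) * (2 : ℝ) ^ (i + 1) * (1 / τ) ^ i := by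
  have hp0 : (0 : ℝ) ≤ p := Nat.cast_nonneg _
  have hterm : ∀ l ∈ Finset.range (p + 1),
      (p.choose l) • (((i + l).factorial : ℝ) * (1 / τ) ^ (i + l)) ≤
        ((i.factorial : ℝ) * (2 : ℝ) ^ i * (1 / τ) ^ i) * (1 / 2) ^ l := by
    intro l _
    rw [nsmul_eq_mul]
    have h1 := choose_mul_fact_le p i l
    have h2 : (0 : ℝ) ≤ (1 / τ) ^ (i + l) := by positivity
    have h3 : 2 * (p : ℝ) * (1 / τ) ≤ 1 / 2 := by
      have : 2 * (p : ℝ) * (1 / τ) = (2 * p) / τ := by ring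
      rw [this, div_le_iff₀ hτ]
      linarith
    have h4 : 0 ≤ 2 * (p : ℝ) * (1 / τ) := by positivity
    have h5 : (2 * (p : ℝ) * (1 / τ)) ^ l ≤ (1 / 2) ^ l := pow_le_pow_left₀ h4 h3 l
    have h6 : (0 : ℝ) ≤ (i.factorial : ℝ) * (2 : ℝ) ^ i * (1 / τ) ^ i := by positivity
    calc ((p.choose l : ℕ) : ℝ) * (((i + l).factorial : ℝ) * (1 / τ) ^ (i + l))
        = (((p.choose l : ℕ) : ℝ) * ((i + l).factorial : ℝ)) * (1 / τ) ^ (i + l) := by ring
      _ ≤ ((2 : ℝ) ^ (i + l) * (i.factorial : ℝ) * (p : ℝ) ^ l) * (1 / τ) ^ (i + l) :=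
          mul_le_mul_of_nonneg_right h1 h2
      _ = ((i.factorial : ℝ) * (2 : ℝ) ^ i * (1 / τ) ^ i) * (2 * (p : ℝ) * (1 / τ)) ^ l := by
          rw [pow_add, pow_add, mul_pow, mul_pow]
          ring
      _ ≤ _ := mul_le_mul_of_nonneg_left h5 h6
  refine (Finset.sum_le_sum hterm).trans ?_
  rw [← Finset.mul_sum]
  have h7 := geom_le_aux (x := (1 / 2 : ℝ)) (by norm_num) (by norm_num) (p + 1)
  have h8 : (1 : ℝ) / (1 - 1 / 2) = 2 := by norm_num
  rw [h8] at h7
  have h6 : (0 : ℝ) ≤ (i.factorial : ℝ) * (2 : ℝ) ^ i * (1 / τ) ^ i := by positivity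
  calc _ ≤ ((i.factorial : ℝ) * (2 : ℝ) ^ i * (1 / τ) ^ i) * 2 := mul_le_mul_of_nonneg_left h7 h6
    _ = _ := by rw [pow_succ]; ring

private lemma G_zero_le_aux {τ : ℝ} (hτ : 0 < τ) {p : ℕ} (hp : (p : ℝ) ≤ τ / 4) :
    ∑ l ∈ Finset.range (p + 1), (p.choose l) • (((0 + l).factorial : ℝ) * (1 / τ) ^ (0 + l)) ≤ 4 / 3 := by
  have hp0 : (0 : ℝ) ≤ p := Nat.cast_nonneg _
  have hterm : ∀ l ∈ Finset.range (p + 1),
      (p.choose l) • (((0 + l).factorial : ℝ) * (1 / τ) ^ (0 + l)) ≤ (1 / 4) ^ l := by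
    intro l _
    rw [nsmul_eq_mul]
    simp only [zero_add]
    have h3 : l.factorial * p.choose l ≤ p ^ l := by
      rw [← Nat.descFactorial_eq_factorial_mul_choose]
      exact Nat.descFactorial_le_pow p l
    have h1 : ((p.choose l : ℕ) : ℝ) * (l.factorial : ℝ) ≤ (p : ℝ) ^ l := by
      have : p.choose l * l.factorial ≤ p ^ l := by rw [mul_comm]; exact h3
      exact_mod_cast this
    have h2 : (0 : ℝ) ≤ (1 / τ) ^ l := by positivity
    have h4 : (p : ℝ) * (1 / τ) ≤ 1 / 4 := by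
      have : (p : ℝ) * (1 / τ) = p / τ := by ring
      rw [this, div_le_iff₀ hτ]
      linarith
    have h5 : 0 ≤ (p : ℝ) * (1 / τ) := by positivity
    calc ((p.choose l : ℕ) : ℝ) * ((l.factorial : ℝ) * (1 / τ) ^ l)
        = (((p.choose l : ℕ) : ℝ) * (l.factorial : ℝ)) * (1 / τ) ^ l := by ring
      _ ≤ (p : ℝ) ^ l * (1 / τ) ^ l := mul_le_mul_of_nonneg_right h1 h2
      _ = ((p : ℝ) * (1 / τ)) ^ l := (mul_pow _ _ _).symm
      _ ≤ _ := pow_le_pow_left₀ h5 h4 l
  refine (Finset.sum_le_sum hterm).trans ?_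
  have h7 := geom_le_aux (x := (1 / 4 : ℝ)) (by norm_num) (by norm_num) (p + 1)
  have h8 : (1 : ℝ) / (1 - 1 / 4) = 4 / 3 := by norm_num
  rw [h8] at h7
  exact h7

/-- Part A1, few poor children (`|Poor| ≤ κ D / 8`). -/
theorem step_poor {A : Finset V} {Zv Rv : V → ℝ} {Rx D : ℝ} (h : StepHyp A Zv Rv Rx D)
    (hpoor : ((A.filter fun v => Rv v < Real.exp (kk * D / 2)).card : ℝ) ≤ kk * D / 8) :
    ∑ T ∈ A.powerset, (T.card.factorial : ℝ) * (1 / (kk * D)) ^ T.card * ∏ v ∈ T, Zv v ≤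
      2 * max 1 (Rx / Real.exp (kk * D / 2)) := by
  obtain ⟨hD, hZ0, hZ, hR1, hsup⟩ := h
  have hD0 : 0 < D := hD
  have hkk := kk_pos
  have he8 : (8 : ℝ) ≤ Real.exp 8 := by
    have := Real.add_one_le_exp (8 : ℝ)
    linarith
  have hkk256 : 256 ≤ kk := by
    unfold kk
    linarith
  obtain ⟨τ, hτdef⟩ : ∃ τ, τ = kk * D / 2 := ⟨_, rfl⟩
  have hτ : 0 < τ := by
    rw [hτdef]
    positivity
  obtain ⟨R0, hR0def⟩ : ∃ R0, R0 = Real.exp (kk * D / 2) := ⟨_, rfl⟩
  rw [← hR0def] at hZ hpoor ⊢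
  have hR00 : 0 < R0 := by
    rw [hR0def]
    exact Real.exp_pos _
  have hR01 : 1 ≤ R0 := by
    rw [hR0def]
    exact Real.one_le_exp (by positivity)
  have h16 : 16 * D ≤ R0 := by
    rw [hR0def]
    have := Real.add_one_le_exp (kk * D / 2)
    nlinarith
  have hc : 1 / (kk * D) = (1 / τ) / 2 := by
    rw [hτdef]
    field_simp
  rw [hc]
  obtain ⟨g, hg⟩ : ∃ g : V → ℝ, g = fun v => max 1 (Rv v / R0) := ⟨_, rfl⟩
  have hg1 : ∀ v, 1 ≤ g v := fun v => by
    rw [hg]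
    exact le_max_left _ _
  set Poor := A.filter fun v => Rv v < R0 with hPoor
  set Rich := A.filter fun v => ¬ Rv v < R0 with hRich
  have hgpoor : ∀ v ∈ Poor, g v = 1 := by
    intro v hv
    have h1 := (Finset.mem_filter.1 hv).2
    rw [hg]
    refine max_eq_left ?_
    rw [div_le_one hR00]
    exact h1.le
  have hgrich : ∀ v ∈ Rich, g v = Rv v / R0 := by
    intro v hv
    have h1 := (Finset.mem_filter.1 hv).2
    rw [hg]
    refine max_eq_right ?_
    rw [one_le_div hR00]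
    linarith
  have hRx1 : 1 ≤ Rx := by
    have := hsup ∅ (Finset.empty_subset _)
    simpa using this
  -- step 0: the `Z` by `g`
  have hstep0 : ∀ T ∈ A.powerset, (T.card.factorial : ℝ) * ((1 / τ) / 2) ^ T.card * ∏ v ∈ T, Zv v ≤
      (T.card.factorial : ℝ) * (1 / τ) ^ T.card * ∏ v ∈ T, g v := by
    intro T hT
    have hT' := Finset.mem_powerset.1 hT
    have h1 : ∏ v ∈ T, Zv v ≤ ∏ v ∈ T, (2 * g v) := by
      refine Finset.prod_le_prod (fun v hv => hZ0 v (hT' hv)) (fun v hv => ?_)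
      rw [hg]
      exact hZ v (hT' hv)
    have h2 : ∏ v ∈ T, (2 * g v) = 2 ^ T.card * ∏ v ∈ T, g v := by
      rw [Finset.prod_mul_distrib, Finset.prod_const]
    have h3 : (0 : ℝ) ≤ (T.card.factorial : ℝ) * ((1 / τ) / 2) ^ T.card := by positivity
    calc _ ≤ (T.card.factorial : ℝ) * ((1 / τ) / 2) ^ T.card * (2 ^ T.card * ∏ v ∈ T, g v) := by
          rw [← h2]
          exact mul_le_mul_of_nonneg_left h1 h3
      _ = _ := by
          rw [div_pow]
          field_simp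
  refine (Finset.sum_le_sum hstep0).trans ?_
  rw [sum_powerset_split_aux (fun v => Rv v < R0)]
  -- the two sets, and the value on a union
  have hunion : ∀ T₁ ∈ Rich.powerset, ∀ T₂ ∈ Poor.powerset,
      (((T₁ ∪ T₂).card.factorial : ℕ) : ℝ) * (1 / τ) ^ (T₁ ∪ T₂).card * ∏ v ∈ T₁ ∪ T₂, g v =
        (∏ v ∈ T₁, g v) * ((((T₁.card + T₂.card).factorial : ℕ) : ℝ) * (1 / τ) ^ (T₁.card + T₂.card)) := by
    intro T₁ h₁ T₂ h₂
    have h₁' := Finset.mem_powerset.1 h₁
    have h₂' := Finset.mem_powerset.1 h₂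
    have hd : Disjoint T₁ T₂ := by
      rw [Finset.disjoint_left]
      intro x hx hx'
      exact (Finset.mem_filter.1 (h₁' hx)).2 (Finset.mem_filter.1 (h₂' hx')).2
    rw [Finset.card_union_of_disjoint hd, Finset.prod_union hd]
    have h1 : ∏ v ∈ T₂, g v = 1 := Finset.prod_eq_one fun v hv => hgpoor v (h₂' hv)
    rw [h1]
    ring
  have hinner : ∀ T₁ ∈ Rich.powerset,
      ∑ T₂ ∈ Poor.powerset, (((T₁ ∪ T₂).card.factorial : ℕ) : ℝ) * (1 / τ) ^ (T₁ ∪ T₂).card *
          ∏ v ∈ T₁ ∪ T₂, g v =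
        (∏ v ∈ T₁, g v) * ∑ l ∈ Finset.range (Poor.card + 1), (Poor.card.choose l) •
          (((T₁.card + l).factorial : ℝ) * (1 / τ) ^ (T₁.card + l)) := by
    intro T₁ h₁
    rw [Finset.sum_congr rfl (hunion T₁ h₁), ← Finset.mul_sum]
    congr 1
    exact Finset.sum_powerset_apply_card
      (fun l => ((T₁.card + l).factorial : ℝ) * (1 / τ) ^ (T₁.card + l))
  rw [Finset.sum_congr rfl hinner]
  have hpτ : (Poor.card : ℝ) ≤ τ / 4 := by
    rw [hτdef]
    linarith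
  -- the product over the rich children
  obtain ⟨Y, hY⟩ : ∃ Y, Y = ∏ v ∈ Rich, g v := ⟨_, rfl⟩
  have hT₁Y : ∀ T₁ ∈ Rich.powerset, ∏ v ∈ T₁, g v ≤ Y := by
    intro T₁ h₁
    have h₁' := Finset.mem_powerset.1 h₁
    have h1 : (∏ v ∈ Rich \ T₁, g v) * ∏ v ∈ T₁, g v = Y := by
      rw [hY]
      exact Finset.prod_sdiff h₁'
    have h2 : 1 ≤ ∏ v ∈ Rich \ T₁, g v := by
      calc (1 : ℝ) = ∏ _v ∈ Rich \ T₁, (1 : ℝ) := by simp
        _ ≤ _ := Finset.prod_le_prod (fun _ _ => zero_le_one) (fun v _ => hg1 v)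
    have h3 : 0 ≤ ∏ v ∈ T₁, g v :=
      Finset.prod_nonneg fun v _ => by
        have := hg1 v
        linarith
    rw [← h1]
    nlinarith
  have hY1 : 1 ≤ Y := by
    have := hT₁Y ∅ (by simp)
    simpa using this
  obtain ⟨j, hj⟩ : ∃ j, j = Rich.card := ⟨_, rfl⟩
  have hYj : Y * (j.factorial : ℝ) ≤ Rx * (16 * D / R0) ^ j := by
    have h1 := hsup Rich (Finset.filter_subset _ _)
    rw [← hj] at h1
    have h2 : Y = (∏ v ∈ Rich, Rv v) / R0 ^ j := by
      rw [hY, Finset.prod_congr rfl hgrich, Finset.prod_div_distrib, Finset.prod_const, hj]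
    have h3 : (0 : ℝ) < (16 * D) ^ j := by positivity
    have h4 : (j.factorial : ℝ) * (∏ v ∈ Rich, Rv v) ≤ Rx * (16 * D) ^ j := by
      have h5 : (j.factorial : ℝ) * (1 / (16 * D)) ^ j * ∏ v ∈ Rich, Rv v =
          ((j.factorial : ℝ) * ∏ v ∈ Rich, Rv v) / (16 * D) ^ j := by
        rw [div_pow, one_pow]
        ring
      rw [h5, div_le_iff₀ h3] at h1
      exact h1
    have h6 : (0 : ℝ) < R0 ^ j := by positivity
    rw [h2, div_pow]
    have h7 : (∏ v ∈ Rich, Rv v) / R0 ^ j * (j.factorial : ℝ) =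
        ((j.factorial : ℝ) * ∏ v ∈ Rich, Rv v) / R0 ^ j := by ring
    rw [h7, div_le_iff₀ h6]
    have h8 : Rx * ((16 * D) ^ j / R0 ^ j) * R0 ^ j = Rx * (16 * D) ^ j := by
      field_simp
    rw [h8]
    exact h4
  -- the bound per set
  have hs1 : 16 * D / R0 ≤ 1 := by
    rw [div_le_one hR00]
    exact h16
  have hs0 : 0 ≤ 16 * D / R0 := by positivity
  have hτ64 : 2 * (16 * D / R0) * (1 / τ) ≤ (1 / 4) * (1 / R0) := by
    rw [hτdef]
    have h1 : 2 * (16 * D / R0) * (1 / (kk * D / 2)) = (64 / kk) * (1 / R0) := by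
      field_simp
      ring
    rw [h1]
    refine mul_le_mul_of_nonneg_right ?_ (by positivity)
    rw [div_le_iff₀ hkk]
    linarith
  obtain ⟨hh, hhdef⟩ : ∃ hh : ℕ → ℝ, hh = fun i => if i = 0 then (4 / 3 : ℝ) else
      Y * ((i.factorial : ℝ) * (2 : ℝ) ^ (i + 1) * (1 / τ) ^ i) := ⟨_, rfl⟩
  have hper : ∀ T₁ ∈ Rich.powerset, (∏ v ∈ T₁, g v) *
      ∑ l ∈ Finset.range (Poor.card + 1), (Poor.card.choose l) •
        (((T₁.card + l).factorial : ℝ) * (1 / τ) ^ (T₁.card + l)) ≤ hh T₁.card := by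
    intro T₁ h₁
    by_cases h0 : T₁.card = 0
    · have hemp : T₁ = ∅ := Finset.card_eq_zero.1 h0
      subst hemp
      rw [hhdef]
      simp only [Finset.prod_empty, one_mul, Finset.card_empty, if_true]
      exact G_zero_le_aux hτ hpτ
    · rw [hhdef]
      simp only [if_neg h0]
      have hG := G_le_aux hτ hpτ T₁.card
      have hp1 := hT₁Y T₁ h₁
      have hp0 : 0 ≤ ∏ v ∈ T₁, g v :=
        Finset.prod_nonneg fun v _ => by
          have := hg1 v
          linarith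
      have hright : 0 ≤ (T₁.card.factorial : ℝ) * (2 : ℝ) ^ (T₁.card + 1) * (1 / τ) ^ T₁.card := by
        positivity
      exact mul_le_mul hp1 hG (Finset.sum_nonneg fun l _ => by positivity) (by linarith)
  refine (Finset.sum_le_sum hper).trans ?_
  rw [Finset.sum_powerset_apply_card hh, ← hj, Finset.sum_range_succ']
  have hfirst : (j.choose 0) • hh 0 = 4 / 3 := by
    rw [hhdef]
    simp
  rw [hfirst]
  have hterm : ∀ i ∈ Finset.range j, (j.choose (i + 1)) • hh (i + 1) ≤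
      (Rx / R0) * (1 / 2) * (1 / 4) ^ i := by
    intro i hi
    have hij : i + 1 ≤ j := Finset.mem_range.1 hi
    rw [hhdef, nsmul_eq_mul]
    simp only [Nat.succ_ne_zero, if_false]
    have h1 : j.choose (i + 1) * (i + 1).factorial ≤ j.factorial := by
      have h2 := Nat.choose_mul_factorial_mul_factorial hij
      have h3 : 1 ≤ (j - (i + 1)).factorial := Nat.factorial_pos _
      calc j.choose (i + 1) * (i + 1).factorial
          = j.choose (i + 1) * (i + 1).factorial * 1 := (mul_one _).symm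
        _ ≤ j.choose (i + 1) * (i + 1).factorial * (j - (i + 1)).factorial :=
            Nat.mul_le_mul_left _ h3
        _ = j.factorial := h2
    have h1' : ((j.choose (i + 1) : ℕ) : ℝ) * ((i + 1).factorial : ℝ) ≤ (j.factorial : ℝ) := by
      exact_mod_cast h1
    have hY0 : 0 ≤ Y := by linarith
    have h2 : (0 : ℝ) ≤ (2 : ℝ) ^ (i + 1 + 1) * (1 / τ) ^ (i + 1) := by positivity
    have h3 : (16 * D / R0) ^ j ≤ (16 * D / R0) ^ (i + 1) := pow_le_pow_of_le_one hs0 hs1 hij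
    have hRx0 : 0 ≤ Rx := by linarith
    have h4 : (2 * (16 * D / R0) * (1 / τ)) ^ (i + 1) ≤ ((1 / 4) * (1 / R0)) ^ (i + 1) :=
      pow_le_pow_left₀ (by positivity) hτ64 _
    have h5 : ((1 / 4) * (1 / R0)) ^ (i + 1) ≤ (1 / 4) ^ (i + 1) * (1 / R0) := by
      rw [mul_pow]
      refine mul_le_mul_of_nonneg_left ?_ (by positivity)
      have h6 : (1 / R0) ≤ 1 := by
        rw [div_le_one hR00]
        exact hR01
      calc (1 / R0) ^ (i + 1) ≤ (1 / R0) ^ 1 :=
            pow_le_pow_of_le_one (by positivity) h6 (by omega)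
        _ = _ := pow_one _
    calc ((j.choose (i + 1) : ℕ) : ℝ) *
          (Y * (((i + 1).factorial : ℝ) * (2 : ℝ) ^ (i + 1 + 1) * (1 / τ) ^ (i + 1)))
        = Y * (((j.choose (i + 1) : ℕ) : ℝ) * ((i + 1).factorial : ℝ)) *
            ((2 : ℝ) ^ (i + 1 + 1) * (1 / τ) ^ (i + 1)) := by ring
      _ ≤ Y * (j.factorial : ℝ) * ((2 : ℝ) ^ (i + 1 + 1) * (1 / τ) ^ (i + 1)) := by
          apply mul_le_mul_of_nonneg_right _ h2
          exact mul_le_mul_of_nonneg_left h1' hY0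
      _ ≤ (Rx * (16 * D / R0) ^ j) * ((2 : ℝ) ^ (i + 1 + 1) * (1 / τ) ^ (i + 1)) :=
          mul_le_mul_of_nonneg_right hYj h2
      _ ≤ (Rx * (16 * D / R0) ^ (i + 1)) * ((2 : ℝ) ^ (i + 1 + 1) * (1 / τ) ^ (i + 1)) := by
          apply mul_le_mul_of_nonneg_right _ h2
          exact mul_le_mul_of_nonneg_left h3 hRx0
      _ = 2 * Rx * (2 * (16 * D / R0) * (1 / τ)) ^ (i + 1) := by
          rw [pow_succ (2 : ℝ) (i + 1), mul_pow, mul_pow]
          ring
      _ ≤ 2 * Rx * ((1 / 4) ^ (i + 1) * (1 / R0)) :=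
          mul_le_mul_of_nonneg_left (h4.trans h5) (by positivity)
      _ = _ := by
          rw [pow_succ]
          ring
  have hsum := Finset.sum_le_sum hterm
  rw [← Finset.mul_sum] at hsum
  have hgeo := geom_le_aux (x := (1 / 4 : ℝ)) (by norm_num) (by norm_num) j
  have h8 : (1 : ℝ) / (1 - 1 / 4) = 4 / 3 := by norm_num
  rw [h8] at hgeo
  have hy0 : 0 ≤ Rx / R0 := by
    have : 0 ≤ Rx := by linarith
    positivity
  have h9 : (Rx / R0) * (1 / 2) * ∑ i ∈ Finset.range j, ((1 : ℝ) / 4) ^ i ≤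
      (Rx / R0) * (1 / 2) * (4 / 3) :=
    mul_le_mul_of_nonneg_left hgeo (by positivity)
  have hm1 : 1 ≤ max 1 (Rx / R0) := le_max_left _ _
  have hm2 : Rx / R0 ≤ max 1 (Rx / R0) := le_max_right _ _
  linarith

/-- `∑_t C(b,t) t! (1/τ)^t ≤ b! (1/τ)^b e^τ`. -/
lemma sum_choose_fact_le (b : ℕ) {τ : ℝ} (hτ : 0 < τ) :
    ∑ t ∈ range (b + 1), (b.choose t : ℝ) * ((t.factorial : ℝ) * (1 / τ) ^ t) ≤
      (b.factorial : ℝ) * (1 / τ) ^ b * Real.exp τ := by
  have h1 : ∑ s ∈ range (b + 1), τ ^ s / (s.factorial : ℝ) ≤ Real.exp τ :=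
    Real.sum_le_exp_of_nonneg hτ.le (b + 1)
  have h2 : ∑ t ∈ range (b + 1), τ ^ (b - t) / ((b - t).factorial : ℝ) =
      ∑ s ∈ range (b + 1), τ ^ s / (s.factorial : ℝ) :=
    Finset.sum_flip (fun s => τ ^ s / (s.factorial : ℝ))
  have h3 : ∑ t ∈ range (b + 1), (b.choose t : ℝ) * ((t.factorial : ℝ) * (1 / τ) ^ t) =
      (b.factorial : ℝ) * (1 / τ) ^ b *
        ∑ t ∈ range (b + 1), τ ^ (b - t) / ((b - t).factorial : ℝ) := by
    rw [Finset.mul_sum]
    refine Finset.sum_congr rfl fun t ht => ?_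
    have htb : t ≤ b := Nat.lt_succ_iff.mp (Finset.mem_range.mp ht)
    have hc : ((b.choose t : ℝ) * (t.factorial : ℝ) * ((b - t).factorial : ℝ)) =
        (b.factorial : ℝ) := by
      exact_mod_cast Nat.choose_mul_factorial_mul_factorial htb
    have hf : ((b - t).factorial : ℝ) ≠ 0 := by positivity
    have hp : (1 / τ) ^ b * τ ^ (b - t) = (1 / τ) ^ t := by
      obtain ⟨s, rfl⟩ := Nat.exists_eq_add_of_le htb
      rw [Nat.add_sub_cancel_left, pow_add, mul_assoc, ← mul_pow, one_div,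
        inv_mul_cancel₀ hτ.ne', one_pow, mul_one]
    rw [← hc, ← hp]
    field_simp
  rw [h3, h2]
  have h0 : 0 ≤ (b.factorial : ℝ) * (1 / τ) ^ b := by positivity
  exact mul_le_mul_of_nonneg_left h1 h0

/-- Part A2, many poor children (`|Poor| > κ D / 8`). -/
theorem step_hub {A : Finset V} {Zv Rv : V → ℝ} {Rx D : ℝ} (h : StepHyp A Zv Rv Rx D)
    (hhub : kk * D / 8 < ((A.filter fun v => Rv v < Real.exp (kk * D / 2)).card : ℝ)) :
    ∑ T ∈ A.powerset, (T.card.factorial : ℝ) * (1 / (kk * D)) ^ T.card * ∏ v ∈ T, Zv v ≤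
      2 * max 1 (Rx / Real.exp (kk * D / 2)) := by
  have hD0 : 0 < D := h.hD
  have hk := kk_pos
  obtain ⟨τ, hτdef⟩ : ∃ τ : ℝ, τ = kk * D / 2 := ⟨_, rfl⟩
  have hτ : 0 < τ := by rw [hτdef]; positivity
  have hZ' : ∀ v ∈ A, Zv v ≤ 2 * max 1 (Rv v / Real.exp τ) := by
    intro v hv; rw [hτdef]; exact h.hZ v hv
  rw [← hτdef] at hhub ⊢
  have hR0 : 1 ≤ Real.exp τ := Real.one_le_exp hτ.le
  have hM1 : ∀ T, T ⊆ A → ∏ v ∈ T, max 1 (Rv v / Real.exp τ) ≤
      ∏ v ∈ A, max 1 (Rv v / Real.exp τ) := by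
    intro T hT
    rw [← Finset.prod_sdiff hT]
    have h1 : (1 : ℝ) ≤ ∏ v ∈ A \ T, max 1 (Rv v / Real.exp τ) := by
      calc (1 : ℝ) = ∏ v ∈ A \ T, (1 : ℝ) := by simp
        _ ≤ _ := Finset.prod_le_prod (fun _ _ => zero_le_one) (fun _ _ => le_max_left _ _)
    have h2 : 0 ≤ ∏ v ∈ T, max 1 (Rv v / Real.exp τ) :=
      Finset.prod_nonneg (fun _ _ => le_trans zero_le_one (le_max_left _ _))
    exact le_mul_of_one_le_left h2 h1
  obtain ⟨M, hMdef⟩ : ∃ M : ℝ, M = ∏ v ∈ A, max 1 (Rv v / Real.exp τ) := ⟨_, rfl⟩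
  rw [← hMdef] at hM1
  have hM0 : 0 ≤ M := by
    rw [hMdef]; exact Finset.prod_nonneg (fun _ _ => le_trans zero_le_one (le_max_left _ _))
  have hterm : ∀ T ∈ A.powerset,
      (T.card.factorial : ℝ) * (1 / (kk * D)) ^ T.card * ∏ v ∈ T, Zv v ≤
        M * ((T.card.factorial : ℝ) * (1 / τ) ^ T.card) := by
    intro T hT
    have hT' := Finset.mem_powerset.mp hT
    have hZ : ∏ v ∈ T, Zv v ≤ 2 ^ T.card * M := by
      calc ∏ v ∈ T, Zv v ≤ ∏ v ∈ T, (2 * max 1 (Rv v / Real.exp τ)) :=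
            Finset.prod_le_prod (fun v hv => h.hZ0 v (hT' hv)) (fun v hv => hZ' v (hT' hv))
        _ = 2 ^ T.card * ∏ v ∈ T, max 1 (Rv v / Real.exp τ) := by
            rw [Finset.prod_mul_distrib, Finset.prod_const]
        _ ≤ 2 ^ T.card * M := by
            exact mul_le_mul_of_nonneg_left (hM1 T hT') (by positivity)
    have hτa : 1 / τ = 2 * (1 / (kk * D)) := by rw [hτdef]; field_simp
    have h0 : 0 ≤ (T.card.factorial : ℝ) * (1 / (kk * D)) ^ T.card := by positivity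
    calc (T.card.factorial : ℝ) * (1 / (kk * D)) ^ T.card * ∏ v ∈ T, Zv v
        ≤ (T.card.factorial : ℝ) * (1 / (kk * D)) ^ T.card * (2 ^ T.card * M) :=
          mul_le_mul_of_nonneg_left hZ h0
      _ = M * ((T.card.factorial : ℝ) * (1 / τ) ^ T.card) := by rw [hτa, mul_pow]; ring
  have hsum : ∑ T ∈ A.powerset, (T.card.factorial : ℝ) * (1 / (kk * D)) ^ T.card * ∏ v ∈ T, Zv v ≤
      M * ((A.card.factorial : ℝ) * (1 / τ) ^ A.card * Real.exp τ) := by
    calc _ ≤ ∑ T ∈ A.powerset, M * ((T.card.factorial : ℝ) * (1 / τ) ^ T.card) :=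
          Finset.sum_le_sum hterm
      _ = M * ∑ T ∈ A.powerset, ((T.card.factorial : ℝ) * (1 / τ) ^ T.card) := by
          rw [Finset.mul_sum]
      _ = M * ∑ t ∈ range (A.card + 1),
            (A.card.choose t : ℝ) * ((t.factorial : ℝ) * (1 / τ) ^ t) := by
          rw [Finset.sum_powerset_apply_card (fun t => (t.factorial : ℝ) * (1 / τ) ^ t)]
          simp only [nsmul_eq_mul]
      _ ≤ _ := mul_le_mul_of_nonneg_left (sum_choose_fact_le _ hτ) hM0
  have hMprod : M ≤ ∏ v ∈ A, Rv v := by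
    rw [hMdef]
    refine Finset.prod_le_prod (fun _ _ => le_trans zero_le_one (le_max_left _ _)) ?_
    intro v hv
    have h1 := h.hR1 v hv
    exact max_le h1 (div_le_self (by linarith) hR0)
  have hsupA := h.hsup A (Finset.Subset.refl A)
  have hRx0 : 0 ≤ Rx := by
    have := h.hsup ∅ (Finset.empty_subset A)
    simp at this
    linarith
  have h1τ : 1 / τ = (1 / (16 * D)) * Real.exp (-8) := by
    rw [hτdef, kk, Real.exp_neg]
    have : Real.exp 8 ≠ 0 := (Real.exp_pos 8).ne'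
    field_simp
    norm_num
  have hb : τ / 4 < (A.card : ℝ) := by
    have h1 : ((A.filter fun v => Rv v < Real.exp τ).card : ℝ) ≤ (A.card : ℝ) := by
      exact_mod_cast Finset.card_filter_le _ _
    have h2 : kk * D / 8 = τ / 4 := by rw [hτdef]; ring
    rw [h2] at hhub
    linarith
  have hexp : Real.exp (-8) ^ A.card * Real.exp τ ≤ Real.exp (-τ) := by
    rw [← Real.exp_nat_mul, ← Real.exp_add]
    apply Real.exp_le_exp.mpr
    nlinarith
  have hF : M * ((A.card.factorial : ℝ) * (1 / τ) ^ A.card * Real.exp τ) ≤ Rx * Real.exp (-τ) := by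
    have e1 : M * ((A.card.factorial : ℝ) * (1 / τ) ^ A.card * Real.exp τ) =
        ((A.card.factorial : ℝ) * (1 / (16 * D)) ^ A.card * M) *
          (Real.exp (-8) ^ A.card * Real.exp τ) := by
      rw [h1τ, mul_pow]; ring
    rw [e1]
    have h0 : 0 ≤ (A.card.factorial : ℝ) * (1 / (16 * D)) ^ A.card := by positivity
    have h3 : (A.card.factorial : ℝ) * (1 / (16 * D)) ^ A.card * M ≤ Rx :=
      le_trans (mul_le_mul_of_nonneg_left hMprod h0) hsupA
    have h4 : 0 ≤ Real.exp (-8) ^ A.card * Real.exp τ := by positivity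
    have h5 : 0 ≤ (A.card.factorial : ℝ) * (1 / (16 * D)) ^ A.card * M := mul_nonneg h0 hM0
    exact mul_le_mul h3 hexp h4 hRx0
  have hE : Rx * Real.exp (-τ) = Rx / Real.exp τ := by
    rw [Real.exp_neg]; rfl
  have hm : Rx / Real.exp τ ≤ max 1 (Rx / Real.exp τ) := le_max_right _ _
  have hm1 : (1 : ℝ) ≤ max 1 (Rx / Real.exp τ) := le_max_left _ _
  linarith [hsum, hF, hE.le, hE.ge]

omit [Fintype V] in
/-- Part A3: `Zk` is nonnegative. -/
theorem zk_nonneg_aux (A : V → Finset V) {a : ℝ} (ha : 0 ≤ a) (k : ℕ) (x : V) : 0 ≤ Zk A a k x := by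
  induction k generalizing x with
  | zero => simp [Zk]
  | succ k ih =>
    simp only [Zk]
    refine Finset.sum_nonneg fun T _ => ?_
    refine mul_nonneg (by positivity) (Finset.prod_nonneg fun v _ => ih v)

/-- Part A3: the induction on the fuel. -/
theorem zk_le (A : V → Finset V) (R : V → ℝ) {D : ℝ} (hD : 0 < D) (hR1 : ∀ x, 1 ≤ R x)
    (hsup : ∀ x, ∀ T, T ⊆ A x →
      (T.card.factorial : ℝ) * (1 / (16 * D)) ^ T.card * ∏ v ∈ T, R v ≤ R x) (k : ℕ) (x : V) :
    Zk A (1 / (kk * D)) k x ≤ 2 * max 1 (R x / Real.exp (kk * D / 2)) := by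
  have hDpos : 0 < D := hD
  have ha : 0 ≤ 1 / (kk * D) := by have := kk_pos; positivity
  induction k generalizing x with
  | zero =>
    simp only [Zk]
    have : (1:ℝ) ≤ max 1 (R x / Real.exp (kk * D / 2)) := le_max_left _ _
    linarith
  | succ k ih =>
    simp only [Zk]
    have hS : StepHyp (A x) (Zk A (1 / (kk * D)) k) R (R x) D :=
      { hD := hD
        hZ0 := fun v _ => zk_nonneg_aux A ha k v
        hZ := fun v _ => ih v
        hR1 := fun v _ => hR1 v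
        hsup := hsup x }
    by_cases hp : (((A x).filter fun v => R v < Real.exp (kk * D / 2)).card : ℝ) ≤ kk * D / 8
    · exact step_poor hS hp
    · exact step_hub hS (not_le.mp hp)

/-- Part A3: consequences used in the sum. -/
theorem zk_le_add (A : V → Finset V) (R : V → ℝ) {D : ℝ} (hD : 0 < D) (hR1 : ∀ x, 1 ≤ R x)
    (hsup : ∀ x, ∀ T, T ⊆ A x →
      (T.card.factorial : ℝ) * (1 / (16 * D)) ^ T.card * ∏ v ∈ T, R v ≤ R x) (k : ℕ) (x : V) :
    Zk A (1 / (kk * D)) k x ≤ 2 + 2 * R x := by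
  have h := zk_le A R hD hR1 hsup k x
  have hDpos : 0 < D := hD
  have hk := kk_pos
  have hexp : 1 ≤ Real.exp (kk * D / 2) := by
    apply Real.one_le_exp; positivity
  have hR0 : 0 ≤ R x := by linarith [hR1 x]
  have hdiv : R x / Real.exp (kk * D / 2) ≤ R x := div_le_self hR0 hexp
  have hmax : max 1 (R x / Real.exp (kk * D / 2)) ≤ 1 + R x := by
    apply max_le <;> linarith
  linarith

end Vale.Agent.Lib.P064G
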