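import Vale.Agent.Lib.P064G.Alg
import Vale.Agent.Lib.P064F.Count
import Vale.Agent.Lib.P064G.Sum
import Vale.Agent.Lib.P064F.Root
import Vale.Agent.Lib.P064U.WComp
import Vale.Agent.Lib.P064N.Final
import Vale.Agent.Lib.P064Q.Chord1

/-!
The embedding bound and the thresholds for forests (notes/P064F_blueprint.md, parts G1, G2).
-/

open Finset

namespace Vale.Agent.Lib.P064G

open Vale.Agent.Lib.P064F

open Vale.Agent.Lib.P064 Vale.Agent.Lib.P064E Vale.Agent.Lib.P064U Vale.Agent.Lib.P064N Vale.Agent.Lib.P064Q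
open scoped Classical

variable {V : Type} [Fintype V]

/-- The constant of the connected bound. -/
noncomputable def cF : ℝ := 4 * kk * (2 + 2 * (1 + 64 * Real.exp 2 * 4)) + 1

/-- Part G1. The total count for connected `G`: root at the top vertex, `top_down`, `count_le` with `A = kk D`,
`zk_le_add`, `sum_R_le`, `exists_fix` with `ρ = B - r`. -/
theorem total_count {H : SimpleGraph V} {S : Finset V} {par : V → V} {r : V → ℕ} {n : ℕ} {q : ℝ}
    (hRF : RF H S par r) (hG : GoodDensity n q H) (hq0 : 0 < q) (hq1 : q ≤ 1)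
    (hn : 1 ≤ n) (hV : Fintype.card V ≤ n)
    {β : Type} [Fintype β] [Nonempty β] (G : SimpleGraph β)
    (hconn : ∀ D : Finset β, D.Nonempty → D ≠ univ → ∃ u ∈ D, ∃ w, w ∉ D ∧ G.Adj u w) :
    ((emb G H).card : ℝ) ≤ Fintype.card β * ((kk * ((n : ℝ) * q)) ^ (Fintype.card β - 1) *
      ((2 + 2 * (1 + 64 * Real.exp 2 * 4)) * n)) := by
  classical
  set D : ℝ := (n : ℝ) * q with hD
  have hnpos0 : (0 : ℝ) < n := by exact_mod_cast hn
  have hD0 : 0 < D := by rw [hD]; positivity
  set B : ℕ := univ.sup r + 1 with hB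
  have hrB : ∀ x, r x < B := fun x => Nat.lt_succ_of_le (Finset.le_sup (f := r) (mem_univ x))
  have hρ : ∀ x, ∀ v ∈ kids S par x, B - r v < B - r x := by
    intro x v hv
    obtain ⟨h2, rfl⟩ := (Finset.mem_filter.1 hv).2
    have h3 := hRF.rank v h2
    have h4 := hrB v
    omega
  obtain ⟨R, T, hsub, hfix, hsup, hR1⟩ :=
    exists_fix (kids S par) (fun x => B - r x) hρ (a := 1 / (16 * D)) (by positivity)
  have hT : SelHyp T S par r := ⟨hRF.rank, hsub⟩
  have hsum := sum_R_le hRF hG hq0 hq1 hD hn hV hT hfix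
  set C : ℝ := 1 + 64 * Real.exp 2 * 4 with hC
  have htree : ∀ z : β, ∃ (π : β → β) (rG : β → ℕ), RootedT G z π rG :=
    fun z => exists_rooted hconn z
  choose π rG hT' using htree
  set A : ℝ := kk * D with hA
  have hA0 : 0 < A := mul_pos kk_pos hD0
  set v : ℕ := Fintype.card β with hv
  set F : β → V → Finset (β → V) := fun z t =>
    (univ : Finset (β → V)).filter fun φ => Function.Injective φ ∧ φ z = t ∧
      ∀ y, y ≠ z → φ y ∉ S ∧ par (φ y) = φ (π z y) with hF
  have hsubset : emb G H ⊆ (univ : Finset β).biUnion fun z =>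
      (univ : Finset V).biUnion fun t => F z t := by
    intro φ hφ
    obtain ⟨z, hz⟩ := Finite.exists_min (fun y => r (φ y))
    refine Finset.mem_biUnion.2 ⟨z, mem_univ _, Finset.mem_biUnion.2 ⟨φ z, mem_univ _, ?_⟩⟩
    refine Finset.mem_filter.2 ⟨mem_univ _, (mem_emb.1 hφ).1, rfl, ?_⟩
    intro y hy
    exact top_down hRF (hT' z) hφ hz y hy
  have hFc : ∀ z t, ((F z t).card : ℝ) ≤ A ^ (v - 1) * (2 + 2 * R t) := by
    intro z t
    have h1 := count_le (S := S) (par := par) (π := π z) (z := z) (rG := rG z) (hT' z).parz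
      (fun y hy => ((hT' z).hpar y hy).1) hA0 (K := univ.sup (rG z))
      (fun y => Finset.le_sup (f := rG z) (mem_univ y)) t
    have h2 := zk_le_add (kids S par) R hD0 hR1 (fun x T' h => hsup x T' h)
      (univ.sup (rG z) + 1) t
    have hp : 0 ≤ A ^ (v - 1) := by positivity
    exact h1.trans (mul_le_mul_of_nonneg_left h2 hp)
  have hn0 : (0 : ℝ) ≤ n := Nat.cast_nonneg _
  have hVn : (Fintype.card V : ℝ) ≤ n := by exact_mod_cast hV
  have hS2 : ∑ t : V, (2 + 2 * R t) ≤ (2 + 2 * C) * n := by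
    rw [Finset.sum_add_distrib, ← Finset.mul_sum]
    simp only [Finset.sum_const, Finset.card_univ, nsmul_eq_mul]
    nlinarith
  have hc : ((emb G H).card : ℝ) ≤ ∑ z : β, ∑ t : V, ((F z t).card : ℝ) := by
    have h1 := Finset.card_le_card hsubset
    have h2 : ((univ : Finset β).biUnion fun z => (univ : Finset V).biUnion fun t => F z t).card ≤
        ∑ z : β, ∑ t : V, (F z t).card := by
      refine Finset.card_biUnion_le.trans ?_
      exact Finset.sum_le_sum fun z _ => Finset.card_biUnion_le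
    have h3 := h1.trans h2
    exact_mod_cast h3
  have hp : 0 ≤ A ^ (v - 1) := by positivity
  calc ((emb G H).card : ℝ) ≤ ∑ z : β, ∑ t : V, ((F z t).card : ℝ) := hc
    _ ≤ ∑ _z : β, ∑ t : V, (A ^ (v - 1) * (2 + 2 * R t)) :=
        Finset.sum_le_sum fun z _ => Finset.sum_le_sum fun t _ => hFc z t
    _ = (v : ℝ) * (A ^ (v - 1) * ∑ t : V, (2 + 2 * R t)) := by
        rw [Finset.sum_const, Finset.card_univ, nsmul_eq_mul, ← Finset.mul_sum]
    _ ≤ (v : ℝ) * (A ^ (v - 1) * ((2 + 2 * C) * n)) := by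
        have h0 : (0 : ℝ) ≤ v := Nat.cast_nonneg _
        exact mul_le_mul_of_nonneg_left (mul_le_mul_of_nonneg_left hS2 hp) h0

/-- Part G2. The connected bound in the form of `emb_components`, then `EmbBound`. -/
theorem embBound_forest {H : SimpleGraph V} {n : ℕ} {q : ℝ} (hH : H.IsAcyclic) (hG : GoodDensity n q H)
    (hq0 : 0 < q) (hq1 : q ≤ 1) (hn : 1 ≤ n) (hV : Fintype.card V ≤ n) :
    EmbBound n H (Real.exp 2 * cF * q) := by
  obtain ⟨S, par, r, hRF⟩ := exists_RF H hH
  have hKK : (1 : ℝ) ≤ 2 + 2 * (1 + 64 * Real.exp 2 * 4) := by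
    have : 0 < Real.exp 2 := Real.exp_pos _
    nlinarith
  have hk0 : 0 < kk := kk_pos
  have hcF0 : 0 < cF := by
    unfold cF
    positivity
  have hn0 : (0 : ℝ) ≤ n := Nat.cast_nonneg _
  have hBd : 0 ≤ cF * q := by positivity
  intro β _ G hiso hvn
  have hmain : ((emb G H).card : ℝ) ≤
      (cF * q) ^ (eIn G univ).card * (n : ℝ) ^ Fintype.card β := by
    refine emb_components (H := H) (n := n) hBd ?_ β G hiso
    intro γ _ G' hne hiso' hconn
    have hne' := hne
    rcases (emb G' H).eq_empty_or_nonempty with hemp | ⟨φ, hφ⟩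
    · rw [hemp, Finset.card_empty, Nat.cast_zero]
      positivity
    obtain ⟨z⟩ := hne'
    obtain ⟨π, rG, hT⟩ := exists_rooted hconn z
    have h1 := edges_le hRF hφ
    have h2 := v_le_e_add_one hT
    have hve : Fintype.card γ = (eIn G' univ).card + 1 := by omega
    have hcount := total_count hRF hG hq0 hq1 hn hV G' hconn
    have hvm : (eIn G' univ).card ≠ 0 := by
      intro h0
      obtain ⟨y, hy⟩ := hiso' z
      have hcard : 1 < Fintype.card γ :=
        Fintype.one_lt_card_iff.2 ⟨z, y, hy.ne⟩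
      omega
    refine hcount.trans ?_
    rw [hve, Nat.add_sub_cancel]
    set e := (eIn G' univ).card with he
    set K : ℝ := 2 + 2 * (1 + 64 * Real.exp 2 * 4) with hK
    have hcFK : 2 * kk * K ≤ cF := by
      have hcF : cF = 4 * kk * K + 1 := rfl
      rw [hcF]
      have : 0 ≤ kk * K := by positivity
      linarith
    have hv2 : ((e + 1 : ℕ) : ℝ) ≤ 2 ^ e := by
      have h3 : e + 1 ≤ 2 ^ e := Nat.lt_two_pow_self
      exact_mod_cast h3
    have hK1 : K ≤ K ^ e := le_self_pow₀ hKK hvm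
    have hKe0 : 0 ≤ K := by linarith
    have hconst : ((e + 1 : ℕ) : ℝ) * (kk ^ e * K) ≤ cF ^ e := by
      calc ((e + 1 : ℕ) : ℝ) * (kk ^ e * K) ≤ 2 ^ e * (kk ^ e * K ^ e) := by
            gcongr
        _ = (2 * kk * K) ^ e := by
            rw [mul_pow, mul_pow]
            ring
        _ ≤ cF ^ e := by
            exact pow_le_pow_left₀ (by positivity) hcFK e
    have hrest : 0 ≤ ((n : ℝ) * q) ^ e * (n : ℝ) := by positivity
    calc ((e + 1 : ℕ) : ℝ) * ((kk * ((n : ℝ) * q)) ^ e * (K * n))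
        = (((e + 1 : ℕ) : ℝ) * (kk ^ e * K)) * (((n : ℝ) * q) ^ e * (n : ℝ)) := by
          rw [mul_pow]
          ring
      _ ≤ cF ^ e * (((n : ℝ) * q) ^ e * (n : ℝ)) :=
          mul_le_mul_of_nonneg_right hconst hrest
      _ = (cF * q) ^ e * (n : ℝ) ^ (e + 1) := by
          rw [mul_pow, mul_pow, pow_succ]
          ring
  refine hmain.trans ?_
  set e := (eIn G univ).card with he
  set v := Fintype.card β with hv
  have hve : v ≤ 2 * e := (vertices_le_darts hiso).trans darts_card_le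
  have hnd := pow_le_exp_descFactorial hvn
  set d : ℝ := (n.descFactorial v : ℝ) with hd
  have hd0 : 0 ≤ d := Nat.cast_nonneg _
  have hE1 : 1 ≤ Real.exp 1 := Real.one_le_exp (by norm_num)
  have hpow : Real.exp 1 ^ v ≤ Real.exp 2 ^ e := by
    have h1 : Real.exp 2 ^ e = Real.exp 1 ^ (2 * e) := by
      have h0 : Real.exp 2 = Real.exp 1 ^ 2 := by
        rw [← Real.exp_nat_mul]
        norm_num
      rw [h0, ← pow_mul]
    rw [h1]
    exact pow_le_pow_right₀ hE1 hve
  have hb0 : 0 ≤ (cF * q) ^ e := by positivity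
  calc (cF * q) ^ e * (n : ℝ) ^ v
      ≤ (cF * q) ^ e * (Real.exp 1 ^ v * d) :=
        mul_le_mul_of_nonneg_left hnd hb0
    _ ≤ (cF * q) ^ e * (Real.exp 2 ^ e * d) := by
        gcongr
    _ = (Real.exp 2 * cF * q) ^ e * d := by
        have : Real.exp 2 * cF * q = (cF * q) * Real.exp 2 := by ring
        rw [this, mul_pow]
        ring

/-- The thresholds: Q1 for all forests. -/
theorem forest_thresholds :
    ∃ C : ℝ, 0 < C ∧ ∀ (n : ℕ) (V : Type) [Fintype V] (H : SimpleGraph V), 2 ≤ n →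
      Fintype.card V ≤ n → H ≠ ⊥ → H.IsAcyclic →
      pTilde n H ≤ C * pE n H ∧ pc n H ≤ C * pE n H * Real.log n := by
  have hcF : 0 < cF := by
    have h := kk_pos
    unfold cF
    positivity
  set c₀ : ℝ := Real.exp 2 * cF with hc₀
  have hc₀0 : 0 < c₀ := by positivity
  refine ⟨2048 * c₀ + 8, by positivity, ?_⟩
  intro n V _ H hn hV hH hac
  have hn2 : (2 : ℝ) ≤ n := by exact_mod_cast hn
  have hL : Real.log 2 ≤ Real.log n := Real.log_le_log (by norm_num) hn2
  have hlog2 : (0.6931471803 : ℝ) < Real.log 2 := Real.log_two_gt_d9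
  have hL0 : 0 < Real.log n := by linarith
  have hP0 : 0 < pE n H := pE_pos hn hV hH
  set P := pE n H with hP
  set L := Real.log n with hLdef
  by_cases hq3 : 4 * P ≤ 1
  · have hG : GoodDensity n (4 * P) H := good_of_pE hn hV hH le_rfl
    have hq0 : 0 < 4 * P := by positivity
    have hEmb : EmbBound n H (c₀ * (4 * P)) :=
      embBound_forest hac hG hq0 hq3 (by omega) hV
    have hΘ0 : 0 < c₀ * (4 * P) := by positivity
    have hT := pTilde_le_of_embBound hV hΘ0 hEmb
    have hC := pc_le_of_embBound hn hV hH hΘ0 hEmb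
    constructor
    · nlinarith
    · calc pc n H ≤ 512 * L * (c₀ * (4 * P)) := hC
        _ = (2048 * c₀) * P * L := by ring
        _ ≤ (2048 * c₀ + 8) * P * L := by
            have h8 : 0 ≤ 8 * P * L := by positivity
            nlinarith
  · have hP4 : 1 < 4 * P := not_le.1 hq3
    have h1 : pTilde n H ≤ 1 := pTilde_le_one hV
    have h2 : pc n H ≤ 1 := pc_le_one hV
    constructor
    · have : 0 ≤ 2048 * c₀ * P := by positivity
      nlinarith
    · have h3 : 0 ≤ 2048 * c₀ * P * L := by positivity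
      have h4 : 1 ≤ 8 * P * L := by nlinarith
      nlinarith

end Vale.Agent.Lib.P064G
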